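import Vale.Agent.P018.Main

namespace Vale.Agent.Results.P018.B_ranges

open Vale.Agent.P018

theorem result :
    (∀ d k : ℕ, 6 ≤ d → d ≤ k + 2 → Asymptotic d k) ∧
    (∀ d k : ℕ, 8 ≤ d → d < 2 * k → Asymptotic d k) ∧
    (∀ ε : ℝ, 0 < ε → ∃ d₀ : ℕ, ∀ d k : ℕ, d₀ ≤ d → (1 / 4 + ε) * (d : ℝ) ≤ (k : ℝ) →
      Asymptotic d k) :=
  ⟨asymptotic_sub_two, asymptotic_half, asymptotic_large⟩

end Vale.Agent.Results.P018.B_ranges
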